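import Mathlib
import Vale.Agent.P076N.Unfold
import Vale.Agent.P076N.Main

/-! Every dimension, on the Fourier side, written with Mathlib notions only (no definition of
ours): almost everywhere convergence of the Schroedinger evolution fails in every weighted
Sobolev space obtained from the endpoint space by an arbitrarily slowly decaying weight. -/

open MeasureTheory Filter Topology Complex

theorem Vale.Agent.Results.P076.FourierSideUnfolded.result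
    (n : ℕ) (hn : 1 ≤ n)
    (ω : ℝ → ℝ) (hanti : Antitone ω) (hpos : ∀ r, 0 < ω r) (hlim : Tendsto ω atTop (𝓝 0)) :
    ∃ g : (Fin n → ℝ) → ℂ, MemLp g 2 volume ∧
      Integrable (fun ξ : Fin n → ℝ =>
        (1 + ∑ j, ξ j ^ 2) ^ ((n : ℝ) / (2 * ((n : ℝ) + 1))) *
          ω (Real.sqrt (∑ j, ξ j ^ 2)) * ‖g ξ‖ ^ 2) ∧
      (∀ (a t : ℝ) (x : Fin n → ℝ), 0 < a → Integrable (fun ξ : Fin n → ℝ =>
        cexp (I * (∑ j, (x j : ℂ) * (ξ j : ℂ)) - ((a : ℂ) + I * t) * (∑ j, (ξ j : ℂ) ^ 2)) *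
          g ξ)) ∧
      ∃ S : Set (Fin n → ℝ), MeasurableSet S ∧ 0 < volume S ∧
        ∀ x ∈ S, ¬ ∃ (L : ℂ) (δ : ℝ) (u : ℝ → ℂ), 0 < δ ∧
          (∀ t, 0 < t → t < δ → Tendsto (fun a : ℝ => ((2 * (Real.pi : ℂ)) ^ n)⁻¹ *
            ∫ ξ : Fin n → ℝ,
              cexp (I * (∑ j, (x j : ℂ) * (ξ j : ℂ)) - ((a : ℂ) + I * t) * (∑ j, (ξ j : ℂ) ^ 2)) *
                g ξ) (𝓝[>] 0) (𝓝 (u t))) ∧
          Tendsto u (𝓝[>] 0) (𝓝 L) := by
  obtain ⟨g, hg2, hgw, S, hSm, hSpos, hS⟩ :=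
    Vale.Agent.P076N.weight_sharp_all n hn ω hanti hpos hlim
  exact ⟨g, hg2, hgw,
    fun a t x ha => Vale.Agent.P076N.integrable_oscN_mul_of_memLp g hg2 a t ha x,
    S, hSm, hSpos, hS⟩
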