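import Mathlib
import Vale.Agent.P076N.PhysDefs
import Vale.Agent.P076N.Phys

/-! Every dimension, stated for a square integrable datum `f` itself. `E` is any real inner
product space of finite dimension `n ≥ 1` with its Lebesgue measure, for instance
`EuclideanSpace ℝ (Fin n)`: almost everywhere convergence of the Schroedinger evolution fails in
every weighted Sobolev space obtained from the endpoint space by an arbitrarily slowly decaying
weight. -/

open MeasureTheory Filter Topology

theorem Vale.Agent.Results.P076.PhysicalSideAllDim.result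
    (E : Type) [NormedAddCommGroup E] [InnerProductSpace ℝ E] [FiniteDimensional ℝ E]
    [MeasurableSpace E] [BorelSpace E] (hn : 1 ≤ Module.finrank ℝ E)
    (ω : ℝ → ℝ) (hanti : Antitone ω) (hpos : ∀ r, 0 < ω r) (hlim : Tendsto ω atTop (𝓝 0)) :
    ∃ f : Lp (α := E) ℂ 2 volume,
      Integrable (fun ξ : E =>
        (1 + ‖ξ‖ ^ 2) ^ ((Module.finrank ℝ E : ℝ) / (2 * ((Module.finrank ℝ E : ℝ) + 1))) *
          ω ‖ξ‖ * ‖Vale.Agent.P076N.hatF f ξ‖ ^ 2) ∧
      (∀ (a t : ℝ) (x : E), 0 < a →
        Integrable (fun ξ : E => Vale.Agent.P076N.kern a t x ξ * Vale.Agent.P076N.hatF f ξ)) ∧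
      ∃ S : Set E, MeasurableSet S ∧ 0 < volume S ∧
        ∀ x ∈ S, ¬ Vale.Agent.P076N.EvolHasLimit f x :=
  Vale.Agent.P076N.phys hn ω hanti hpos hlim
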