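import Mathlib
import Vale.Agent.P076.Defs
import Vale.Agent.P076.Main

/-! Dimension two: almost everywhere convergence of the Schroedinger evolution fails in every
weighted Sobolev space obtained from the endpoint space by an arbitrarily slowly decaying weight. -/

open MeasureTheory Filter Topology

theorem Vale.Agent.Results.P076.WeightSharp.result
    (ω : ℝ → ℝ) (hanti : Antitone ω) (hpos : ∀ r, 0 < ω r) (hlim : Tendsto ω atTop (𝓝 0)) :
    ∃ g : ℝ × ℝ → ℂ, MemLp g 2 volume ∧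
      Integrable (fun ξ : ℝ × ℝ => (1 + ξ.1 ^ 2 + ξ.2 ^ 2) ^ (1 / 3 : ℝ) *
        ω (Real.sqrt (ξ.1 ^ 2 + ξ.2 ^ 2)) * ‖g ξ‖ ^ 2) ∧
      ∃ S : Set (ℝ × ℝ), MeasurableSet S ∧ 0 < volume S ∧
        ∀ x ∈ S, ¬ Vale.Agent.P076.HasSchrodLimit g x :=
  Vale.Agent.P076.weight_sharp ω hanti hpos hlim
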