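import Mathlib
import Vale.Agent.P076N.Defs
import Vale.Agent.P076N.Main

/-! Every dimension: almost everywhere convergence of the Schroedinger evolution fails in every
weighted Sobolev space obtained from the endpoint space by an arbitrarily slowly decaying weight. -/

open MeasureTheory Filter Topology

theorem Vale.Agent.Results.P076.WeightSharpAllDim.result
    (n : ℕ) (hn : 1 ≤ n)
    (ω : ℝ → ℝ) (hanti : Antitone ω) (hpos : ∀ r, 0 < ω r) (hlim : Tendsto ω atTop (𝓝 0)) :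
    ∃ g : (Fin n → ℝ) → ℂ, MemLp g 2 volume ∧
      Integrable (fun ξ : Fin n → ℝ =>
        (1 + ∑ j, ξ j ^ 2) ^ ((n : ℝ) / (2 * ((n : ℝ) + 1))) *
          ω (Real.sqrt (∑ j, ξ j ^ 2)) * ‖g ξ‖ ^ 2) ∧
      ∃ S : Set (Fin n → ℝ), MeasurableSet S ∧ 0 < volume S ∧
        ∀ x ∈ S, ¬ Vale.Agent.P076N.HasSchrodLimit n g x :=
  Vale.Agent.P076N.weight_sharp_all n hn ω hanti hpos hlim
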